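import Mathlib

set_option autoImplicit false

open scoped ENNReal

namespace Crest.Agent.Helper9

/-- Reflexivity transfers along continuous linear equivalences. -/
theorem reflexive_of_equiv {E F : Type*} [NormedAddCommGroup E] [NormedSpace ℝ E]
    [NormedAddCommGroup F] [NormedSpace ℝ F] (e : E ≃L[ℝ] F)
    (hE : Function.Surjective (NormedSpace.inclusionInDoubleDual ℝ E)) :
    Function.Surjective (NormedSpace.inclusionInDoubleDual ℝ F) := by
  intro Φ
  let T : StrongDual ℝ E →L[ℝ] StrongDual ℝ F :=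
    (ContinuousLinearMap.compL ℝ F E ℝ).flip (e.symm : F →L[ℝ] E)
  obtain ⟨x, hx⟩ := hE (Φ.comp T)
  refine ⟨e x, ?_⟩
  ext ψ
  have h1 := congrArg (fun Ξ => Ξ (ψ.comp (e : E →L[ℝ] F))) hx
  simp only [NormedSpace.dual_def, ContinuousLinearMap.comp_apply] at h1
  rw [NormedSpace.dual_def]
  have h2 : T (ψ.comp (e : E →L[ℝ] F)) = ψ := by
    ext y
    simp [T]
  rw [h2] at h1
  simpa using h1

/-- A real Hilbert space is reflexive. -/
theorem reflexive_of_hilbert (H : Type*) [NormedAddCommGroup H] [InnerProductSpace ℝ H]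
    [CompleteSpace H] :
    Function.Surjective (NormedSpace.inclusionInDoubleDual ℝ H) := by
  intro Φ
  let φ : StrongDual ℝ H := LinearMap.mkContinuous
    { toFun := fun v => Φ (InnerProductSpace.toDual ℝ H v)
      map_add' := fun v w => by simp [map_add]
      map_smul' := fun c v => by simp } ‖Φ‖ (fun v => by
        simpa using Φ.le_opNorm (InnerProductSpace.toDual ℝ H v))
  refine ⟨(InnerProductSpace.toDual ℝ H).symm φ, ?_⟩
  ext ψ
  rw [NormedSpace.dual_def]
  obtain ⟨v, rfl⟩ := (InnerProductSpace.toDual ℝ H).surjective ψ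
  rw [InnerProductSpace.toDual_apply_apply, real_inner_comm, InnerProductSpace.toDual_symm_apply]
  rfl

section lp2

variable {ι : Type*} {G : ι → Type*} [∀ i, NormedAddCommGroup (G i)] [∀ i, NormedSpace ℝ (G i)]

private lemma sq_le_of_le_mul_sqrt {T B : ℝ} (hT : 0 ≤ T) (_hB : 0 ≤ B)
    (h : T ≤ B * Real.sqrt T) : T ≤ B ^ 2 := by
  rcases eq_or_lt_of_le hT with h0 | hpos
  · rw [← h0]; positivity
  · have hs : 0 < Real.sqrt T := Real.sqrt_pos.2 hpos
    have h1 : Real.sqrt T ≤ B := by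
      have : Real.sqrt T * Real.sqrt T ≤ B * Real.sqrt T := by rwa [Real.mul_self_sqrt hT]
      exact le_of_mul_le_mul_right this hs
    calc T = Real.sqrt T ^ 2 := (Real.sq_sqrt hT).symm
      _ ≤ B ^ 2 := by gcongr

private lemma sum_sq_le (y : lp G 2) (s : Finset ι) : ∑ i ∈ s, ‖y i‖ ^ 2 ≤ ‖y‖ ^ 2 := by
  have := lp.sum_rpow_le_norm_rpow (p := 2) (by simp) y s
  simpa using this

private lemma norm_sq_sum_single [DecidableEq ι] (f : ∀ i, G i) (s : Finset ι) :
    ‖∑ i ∈ s, lp.single 2 i (f i)‖ ^ 2 = ∑ i ∈ s, ‖f i‖ ^ 2 := by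
  have := lp.norm_sum_single (p := 2) (by simp) f s
  simpa using this

/-- Step A: the coordinates of a bidual element are square summable. -/
private lemma stepA (Φ : StrongDual ℝ (StrongDual ℝ (lp G 2))) (x : ∀ i, G i)
    (hx : ∀ i (g : StrongDual ℝ (G i)), Φ (g.comp (lp.evalCLM ℝ G 2 i)) = g (x i))
    (s : Finset ι) : ∑ i ∈ s, ‖x i‖ ^ 2 ≤ ‖Φ‖ ^ 2 := by
  choose g hg1 hg2 using fun i => exists_dual_vector'' ℝ (x i)
  let ψ : StrongDual ℝ (lp G 2) := ∑ i ∈ s, ‖x i‖ • (g i).comp (lp.evalCLM ℝ G 2 i)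
  have hΦψ : Φ ψ = ∑ i ∈ s, ‖x i‖ ^ 2 := by
    simp only [ψ, map_sum, map_smul, smul_eq_mul, hx, hg2, sq]
    rfl
  have hψ : ‖ψ‖ ≤ Real.sqrt (∑ i ∈ s, ‖x i‖ ^ 2) := by
    refine ContinuousLinearMap.opNorm_le_bound _ (Real.sqrt_nonneg _) fun y => ?_
    have hy : ψ y = ∑ i ∈ s, ‖x i‖ * g i (y i) := by
      simp only [ψ, sum_apply, smul_apply, smul_eq_mul,
        ContinuousLinearMap.comp_apply]
      rfl
    rw [hy, Real.norm_eq_abs]
    calc |∑ i ∈ s, ‖x i‖ * g i (y i)| ≤ ∑ i ∈ s, |‖x i‖ * g i (y i)| :=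
          Finset.abs_sum_le_sum_abs _ _
      _ ≤ ∑ i ∈ s, ‖x i‖ * ‖y i‖ := by
          refine Finset.sum_le_sum fun i _ => ?_
          rw [abs_mul, abs_norm]
          refine mul_le_mul_of_nonneg_left ?_ (norm_nonneg _)
          calc |g i (y i)| ≤ ‖g i‖ * ‖y i‖ := (g i).le_opNorm _
            _ ≤ 1 * ‖y i‖ := mul_le_mul_of_nonneg_right (hg1 i) (norm_nonneg _)
            _ = ‖y i‖ := one_mul _
      _ ≤ Real.sqrt (∑ i ∈ s, ‖x i‖ ^ 2) * Real.sqrt (∑ i ∈ s, ‖y i‖ ^ 2) :=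
          Real.sum_mul_le_sqrt_mul_sqrt s _ _
      _ ≤ Real.sqrt (∑ i ∈ s, ‖x i‖ ^ 2) * ‖y‖ := by
          refine mul_le_mul_of_nonneg_left ?_ (Real.sqrt_nonneg _)
          exact Real.sqrt_le_iff.2 ⟨norm_nonneg _, sum_sq_le y s⟩
  have h3 : ∑ i ∈ s, ‖x i‖ ^ 2 ≤ ‖Φ‖ * Real.sqrt (∑ i ∈ s, ‖x i‖ ^ 2) := by
    calc ∑ i ∈ s, ‖x i‖ ^ 2 = Φ ψ := hΦψ.symm
      _ ≤ ‖Φ ψ‖ := Real.le_norm_self _
      _ ≤ ‖Φ‖ * ‖ψ‖ := Φ.le_opNorm ψ
      _ ≤ ‖Φ‖ * Real.sqrt (∑ i ∈ s, ‖x i‖ ^ 2) :=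
          mul_le_mul_of_nonneg_left hψ Φ.opNorm_nonneg
  exact sq_le_of_le_mul_sqrt (Finset.sum_nonneg fun i _ => by positivity) Φ.opNorm_nonneg h3

/-- Norming vectors exist in a reflexive space. -/
private lemma exists_norming {E : Type*} [NormedAddCommGroup E] [NormedSpace ℝ E]
    (hE : Function.Surjective (NormedSpace.inclusionInDoubleDual ℝ E)) (ψ : StrongDual ℝ E) :
    ∃ y : E, ‖y‖ ≤ 1 ∧ ψ y = ‖ψ‖ := by
  obtain ⟨Ξ, hΞ1, hΞ2⟩ := exists_dual_vector'' ℝ ψ
  obtain ⟨y, rfl⟩ := hE Ξ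
  refine ⟨y, ?_, ?_⟩
  · have := (NormedSpace.inclusionInDoubleDualLi (E := E) ℝ).norm_map y
    rw [← this]
    exact hΞ1
  · simpa [NormedSpace.dual_def] using hΞ2

/-- Step B1: the norms of the coordinate restrictions of a functional are square summable. -/
private lemma stepB1 [DecidableEq ι]
    (h : ∀ i, Function.Surjective (NormedSpace.inclusionInDoubleDual ℝ (G i)))
    (ψ : StrongDual ℝ (lp G 2)) (s : Finset ι) :
    ∑ i ∈ s, ‖ψ.comp (lp.singleContinuousLinearMap ℝ G 2 i)‖ ^ 2 ≤ ‖ψ‖ ^ 2 := by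
  choose y hy1 hy2 using fun i =>
    exists_norming (h i) (ψ.comp (lp.singleContinuousLinearMap ℝ G 2 i))
  set a : ι → ℝ := fun i => ‖ψ.comp (lp.singleContinuousLinearMap ℝ G 2 i)‖ with ha
  let z : lp G 2 := ∑ i ∈ s, lp.single 2 i (a i • y i)
  have hψz : ψ z = ∑ i ∈ s, a i ^ 2 := by
    simp only [z, map_sum]
    refine Finset.sum_congr rfl fun i _ => ?_
    have h0 : ψ (lp.single 2 i (a i • y i))
        = (ψ.comp (lp.singleContinuousLinearMap ℝ G 2 i)) (a i • y i) := rfl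
    rw [h0, map_smul, hy2 i, smul_eq_mul, sq]
  have hz : ‖z‖ ≤ Real.sqrt (∑ i ∈ s, a i ^ 2) := by
    refine Real.le_sqrt_of_sq_le ?_
    rw [norm_sq_sum_single]
    refine Finset.sum_le_sum fun i _ => ?_
    rw [norm_smul, Real.norm_eq_abs, mul_pow, sq_abs]
    calc a i ^ 2 * ‖y i‖ ^ 2 ≤ a i ^ 2 * 1 ^ 2 := by
          gcongr
          exact hy1 i
      _ = a i ^ 2 := by ring
  have h3 : ∑ i ∈ s, a i ^ 2 ≤ ‖ψ‖ * Real.sqrt (∑ i ∈ s, a i ^ 2) := by
    calc ∑ i ∈ s, a i ^ 2 = ψ z := hψz.symm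
      _ ≤ ‖ψ z‖ := Real.le_norm_self _
      _ ≤ ‖ψ‖ * ‖z‖ := ψ.le_opNorm z
      _ ≤ _ := mul_le_mul_of_nonneg_left hz ψ.opNorm_nonneg
  exact sq_le_of_le_mul_sqrt (Finset.sum_nonneg fun i _ => by positivity) ψ.opNorm_nonneg h3

/-- Step B3: a functional on the `ℓ²`-sum is the norm-convergent sum of its coordinate parts. -/
private lemma stepB3 [DecidableEq ι]
    (h : ∀ i, Function.Surjective (NormedSpace.inclusionInDoubleDual ℝ (G i)))
    (ψ : StrongDual ℝ (lp G 2)) :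
    HasSum (fun i => (ψ.comp (lp.singleContinuousLinearMap ℝ G 2 i)).comp (lp.evalCLM ℝ G 2 i))
      ψ := by
  set a : ι → ℝ := fun i => ‖ψ.comp (lp.singleContinuousLinearMap ℝ G 2 i)‖ with ha
  have ha0 : ∀ i, 0 ≤ a i := fun i => norm_nonneg _
  have hmem : Memℓp a 2 := by
    refine memℓp_gen' (C := ‖ψ‖ ^ 2) fun s => ?_
    have := stepB1 h ψ s
    simpa [ha] using this
  let α : lp (fun _ : ι => ℝ) 2 := ⟨a, hmem⟩
  have hα := lp.hasSum_single (p := 2) (by norm_num) α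
  have key : ∀ s : Finset ι,
      ‖(∑ i ∈ s, (ψ.comp (lp.singleContinuousLinearMap ℝ G 2 i)).comp (lp.evalCLM ℝ G 2 i)) - ψ‖
        ≤ ‖(∑ i ∈ s, lp.single 2 i (α i)) - α‖ := by
    intro s
    refine ContinuousLinearMap.opNorm_le_bound _ (norm_nonneg _) fun y => ?_
    set t : lp (fun _ : ι => ℝ) 2 := (∑ i ∈ s, lp.single 2 i (α i)) - α with ht
    set y' : lp G 2 := y - ∑ i ∈ s, lp.single 2 i (y i) with hy'
    have e1 : ((∑ i ∈ s, (ψ.comp (lp.singleContinuousLinearMap ℝ G 2 i)).comp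
        (lp.evalCLM ℝ G 2 i)) - ψ) y = - ψ y' := by
      simp only [sub_apply, sum_apply, hy', map_sub,
        map_sum, neg_sub]
      rfl
    rw [e1, norm_neg]
    have ht_apply : ∀ i, ‖t i‖ = if i ∈ s then 0 else a i := by
      intro i
      have : t i = (if i ∈ s then a i else 0) - a i := by
        simp only [ht, lp.coeFn_sub, lp.coeFn_sum, lp.coeFn_single, Pi.sub_apply,
          Finset.sum_apply, Finset.sum_pi_single]
        rfl
      rw [this]
      split_ifs with hi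
      · simp
      · simp [abs_of_nonneg (ha0 i)]
    have hy'_apply : ∀ i, y' i = if i ∈ s then 0 else y i := by
      intro i
      have : y' i = y i - (if i ∈ s then y i else 0) := by
        simp only [hy', lp.coeFn_sub, lp.coeFn_sum, lp.coeFn_single, Pi.sub_apply,
          Finset.sum_apply, Finset.sum_pi_single]
      rw [this]
      split_ifs with hi <;> simp
    have hsum : HasSum (fun i => ψ (lp.single 2 i (y' i))) (ψ y') :=
      ψ.hasSum (lp.hasSum_single (p := 2) (by norm_num) y')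
    have hHol := lp.tsum_mul_le_mul_norm (p := 2) (q := 2)
      (by simpa using Real.HolderConjugate.two_two) t (lp.toNorm y')
    have hbound : ∀ i, ‖ψ (lp.single 2 i (y' i))‖ ≤ ‖t i‖ * ‖(lp.toNorm y') i‖ := by
      intro i
      rw [ht_apply]
      have hn : ‖(lp.toNorm y') i‖ = ‖y' i‖ := by simp [lp.toNorm]
      rw [hn, hy'_apply]
      by_cases hi : i ∈ s
      · simp [hi]
      · simp only [hi, if_false]
        exact (ψ.comp (lp.singleContinuousLinearMap ℝ G 2 i)).le_opNorm (y i)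
    calc ‖ψ y'‖ ≤ ∑' i, ‖t i‖ * ‖(lp.toNorm y') i‖ :=
          hsum.norm_le_of_bounded hHol.1.hasSum hbound
      _ ≤ ‖t‖ * ‖lp.toNorm y'‖ := hHol.2
      _ = ‖t‖ * ‖y'‖ := by rw [lp.norm_toNorm]
      _ ≤ ‖t‖ * ‖y‖ := by
          refine mul_le_mul_of_nonneg_left ?_ (norm_nonneg _)
          refine lp.norm_mono (by norm_num) fun i => ?_
          rw [hy'_apply]
          split_ifs <;> simp
  rw [HasSum] at hα ⊢
  rw [tendsto_iff_norm_sub_tendsto_zero] at hα ⊢
  exact squeeze_zero (fun s => norm_nonneg _) key hα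

/-- `ℓ²`-sums of reflexive spaces are reflexive. -/
theorem reflexive_lp_two
    (h : ∀ i, Function.Surjective (NormedSpace.inclusionInDoubleDual ℝ (G i))) :
    Function.Surjective (NormedSpace.inclusionInDoubleDual ℝ (lp G 2)) := by
  classical
  intro Φ
  -- the coordinates of the candidate preimage
  have hex : ∀ i, ∃ xi : G i, ∀ g : StrongDual ℝ (G i),
      Φ (g.comp (lp.evalCLM ℝ G 2 i)) = g xi := by
    intro i
    let T : StrongDual ℝ (G i) →L[ℝ] StrongDual ℝ (lp G 2) :=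
      (ContinuousLinearMap.compL ℝ (lp G 2) (G i) ℝ).flip (lp.evalCLM ℝ G 2 i)
    obtain ⟨xi, hxi⟩ := h i (Φ.comp T)
    refine ⟨xi, fun g => ?_⟩
    have h1 := congrArg (fun Ξ => Ξ g) hxi
    simp only [NormedSpace.dual_def, ContinuousLinearMap.comp_apply] at h1
    rw [h1]
    rfl
  choose x hx using hex
  have hmem : Memℓp x 2 := by
    refine memℓp_gen' (C := ‖Φ‖ ^ 2) fun s => ?_
    have := stepA Φ x hx s
    simpa using this
  refine ⟨⟨x, hmem⟩, ?_⟩
  ext ψ
  rw [NormedSpace.dual_def]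
  have h1 : HasSum (fun i => Φ ((ψ.comp (lp.singleContinuousLinearMap ℝ G 2 i)).comp
      (lp.evalCLM ℝ G 2 i))) (Φ ψ) := Φ.hasSum (stepB3 h ψ)
  have h2 : HasSum (fun i => ψ (lp.single 2 i ((⟨x, hmem⟩ : lp G 2) i))) (ψ ⟨x, hmem⟩) :=
    ψ.hasSum (lp.hasSum_single (p := 2) (by norm_num) (⟨x, hmem⟩ : lp G 2))
  have h3 : (fun i => Φ ((ψ.comp (lp.singleContinuousLinearMap ℝ G 2 i)).comp
      (lp.evalCLM ℝ G 2 i))) = fun i => ψ (lp.single 2 i ((⟨x, hmem⟩ : lp G 2) i)) := by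
    funext i
    rw [hx i]
    rfl
  rw [h3] at h1
  exact h2.unique h1

end lp2

/-- `ℓ²`-sums of separable spaces over a countable index type are separable. -/
theorem separable_lp_two {ι : Type*} [Countable ι] {G : ι → Type*}
    [∀ i, NormedAddCommGroup (G i)] [∀ i, NormedSpace ℝ (G i)]
    [∀ i, TopologicalSpace.SeparableSpace (G i)] :
    TopologicalSpace.SeparableSpace (lp G 2) := by
  classical
  rw [← TopologicalSpace.isSeparable_univ_iff]
  have h1 : TopologicalSpace.IsSeparable (⋃ i, Set.range (lp.single (E := G) 2 i)) := by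
    refine TopologicalSpace.IsSeparable.iUnion fun i => ?_
    exact TopologicalSpace.isSeparable_range (lp.isometry_single i).continuous
  have h2 := (h1.span (R := ℝ)).closure
  refine h2.mono ?_
  intro y _
  have hy := lp.hasSum_single (p := 2) (by norm_num) y
  refine mem_closure_of_tendsto hy (Filter.Eventually.of_forall fun s => ?_)
  exact Submodule.sum_mem _ fun i _ =>
    Submodule.subset_span (Set.mem_iUnion.2 ⟨i, Set.mem_range_self _⟩)

/-- An `ℓ²`-sum of nontrivial spaces over an infinite index type is infinite-dimensional. -/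
theorem not_finiteDimensional_lp_two {ι : Type*} [Infinite ι] {G : ι → Type*}
    [∀ i, NormedAddCommGroup (G i)] [∀ i, NormedSpace ℝ (G i)] (h : ∀ i, Nontrivial (G i)) :
    ¬ FiniteDimensional ℝ (lp G 2) := by
  classical
  intro hfin
  have hex : ∀ i, ∃ v : G i, v ≠ 0 := fun i => by
    have := h i
    exact exists_ne (0 : G i)
  choose v hv using hex
  have hli : LinearIndependent ℝ (fun i => lp.single (E := G) 2 i (v i)) := by
    rw [linearIndependent_iff']
    intro s c hc j hj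
    have h1 := congrArg (fun f : lp G 2 => f j) hc
    simp only [lp.coeFn_sum, lp.coeFn_smul, Finset.sum_apply, Pi.smul_apply, lp.coeFn_single,
      lp.coeFn_zero, Pi.zero_apply] at h1
    rw [Finset.sum_eq_single j] at h1
    · simpa [hv j] using h1
    · intro b _ hbj
      simp [Pi.single_eq_of_ne (Ne.symm hbj)]
    · intro hj'
      exact absurd hj hj'
  have hN : IsNoetherian ℝ (lp G 2) := inferInstance
  have hf : Finite ι := hli.finite_of_isNoetherian
  exact not_finite ι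

end Crest.Agent.Helper9
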